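import Vale.Agent.Lib.P078.Pro.Z5
import Vale.Agent.Lib.P078.ProMod.M10

namespace Vale.Agent.Results.P078.ProfiniteCartan

open Vale.Agent.Lib.P078

/-- **So-paving for crossed products by free profinite actions of arbitrary groups.** Let `N(ε)`
be the paving number of finite matrices over their diagonals (`matrixPavingNumber`).

* (I) Let `M` be a von Neumann algebra on a Hilbert space `H` with a separating unit trace
  vector `Ω`, let `A` be a MASA of `M` and `Γ` a group such that `A ⊆ M` is, with respect to
  `Ω`, the crossed product of a free profinite action of `Γ` (`IsProfiniteOver`): there are a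
  unitary representation `u` of `Γ` in `M` and a family of levels (finite partitions of `1`
  into projections of `A` of equal trace, permuted by conjugation with the `u γ`), any two
  with a common refinement, such that every `γ ≠ 1` fixes an arbitrarily small proportion of
  the projections of suitable levels, and such that the finite sums `∑ a_j u γ_j`, with the
  `a_j` in the span of one level, are dense in `M` for the seminorm `x ↦ ‖x Ω‖`.  No
  amenability is assumed.  Then `n_{A ⊆ M}(ε') ≤ N(ε)` for all `ε < ε'`.
* (II) For every group `Γ` acting on a set `S` with finite orbits, such that every `γ ≠ 1`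
  moves infinitely many points, such `H`, `A ⊆ M` and `Ω` exist: the witness is the group von
  Neumann algebra of `(⊕_S ℤ/2) ⋊ Γ`, i.e. `L^∞({0,1}^S) ⋊ Γ`, with the subalgebra
  `L^∞({0,1}^S)`. -/
theorem result.{u} :
    (∀ (Γ : Type) [Group Γ] (H : Type u) [NormedAddCommGroup H] [InnerProductSpace ℂ H]
        [CompleteSpace H] (A M : VonNeumannAlgebra H) (Ω : H),
        IsMASA A M → IsTraceVector M Ω → IsSeparating M Ω → IsProfiniteOver Γ A M Ω →
        ∀ ε ε' : ℝ, ε < ε' → soPavingNumber A M ε' ≤ matrixPavingNumber ε) ∧
    ∀ (Γ S : Type) [Group Γ] [MulAction Γ S], (∀ s : S, (MulAction.orbit Γ s).Finite) →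
      (∀ γ : Γ, γ ≠ 1 → {s : S | γ • s ≠ s}.Infinite) →
      ∃ (H : Type) (_ : NormedAddCommGroup H) (_ : InnerProductSpace ℂ H) (_ : CompleteSpace H)
        (A M : VonNeumannAlgebra H) (Ω : H),
        IsMASA A M ∧ IsTraceVector M Ω ∧ IsSeparating M Ω ∧ IsProfiniteOver Γ A M Ω := by
  exact ⟨fun Γ _ H _ _ _ A M Ω hA hΩ hsep hpro ε ε' hεε' =>
      pro_number_le A M Ω hA.1 hΩ hsep hpro hεε',
    fun Γ S _ _ hfin hfree => b_witness Γ S hfin hfree⟩

end Vale.Agent.Results.P078.ProfiniteCartan
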