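import Vale.Agent.Lib.P078.HF.Sum
import Vale.Agent.Lib.P078.Pro.Z5

namespace Vale.Agent.Results.P078.ThreeClasses

open Vale.Agent.Lib.P078

/-- **The so-paving number is bounded by the paving number of finite matrices in the three
classes of the problem.** Let `A` be a MASA of a von Neumann algebra `M` on a Hilbert space
`H`, and let `N(ε)` be the paving number of finite matrices over their diagonals
(`matrixPavingNumber`).  Then `n_{A ⊆ M}(ε') ≤ N(ε)` for all `ε < ε'` in each of the
following cases:

* (a) `M` is of type I;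
* (b) `M` has a separating unit trace vector `Ω` and is approximately finite-dimensional over
  `A` (`IsAFDOver`: the finite case of a Cartan MASA of an amenable algebra); in this case
  also `N(ε) ≤ n_{A ⊆ M}(ε)` for all `ε > 0`;
* (c) `M` has a separating unit trace vector `Ω` and `A ⊆ M` is the crossed product of a free
  profinite action of a group `Γ` (`IsProfiniteOver`; `Γ` need not be amenable). -/
theorem result.{u} :
    ∀ (H : Type u) [NormedAddCommGroup H] [InnerProductSpace ℂ H] [CompleteSpace H]
      (A M : VonNeumannAlgebra H), IsMASA A M →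
      (IsTypeOne M → ∀ ε ε' : ℝ, ε < ε' → soPavingNumber A M ε' ≤ matrixPavingNumber ε) ∧
      ∀ Ω : H, IsTraceVector M Ω → IsSeparating M Ω →
        (IsAFDOver A M Ω →
          (∀ ε ε' : ℝ, ε < ε' → soPavingNumber A M ε' ≤ matrixPavingNumber ε) ∧
          ∀ ε : ℝ, 0 < ε → matrixPavingNumber ε ≤ soPavingNumber A M ε) ∧
        ∀ (Γ : Type) [Group Γ], IsProfiniteOver Γ A M Ω →
          ∀ ε ε' : ℝ, ε < ε' → soPavingNumber A M ε' ≤ matrixPavingNumber ε := by
  intro H _ _ _ A M hA
  refine ⟨fun hM ε ε' hεε' => ?_, fun Ω hΩ hsep => ⟨fun hafd => ⟨fun ε ε' hεε' => ?_,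
    fun ε hε => ?_⟩, fun Γ _ hpro ε ε' hεε' => pro_number_le A M Ω hA.1 hΩ hsep hpro hεε'⟩⟩
  · obtain ⟨f, hf, hfp, hfab, hcs⟩ := hM
    exact soPavingNumber_le_matrixPavingNumber_of_type_one A M hA f hf hfp hfab hcs hεε'
  · exact soPavingNumber_le_matrixPavingNumber_of_approx_type_one A M hA
      (isCentralizing_of_isTraceVector A M hA.1 hΩ) hsep
      (isApproxTypeOne_of_isAFDOver A M hA Ω hafd) hεε'
  · exact matrixPavingNumber_le_soPavingNumber A M hA hΩ
      (exists_units_of_isAFDOver A M Ω hafd) hε

end Vale.Agent.Results.P078.ThreeClasses
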