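import Vale.Agent.Lib.P078.Approx
import Vale.Agent.Lib.P078.Pro.Z5

namespace Vale.Agent.Results.P078.ThreeClassesApproxTypeOne

open Vale.Agent.Lib.P078

/-- **The so-paving number is bounded by the paving number of finite matrices: type I algebras,
inclusions approximately of type I for a state centralizing the MASA, and free profinite
crossed products.** Let `A` be a MASA of a von Neumann algebra `M` on a Hilbert space `H`, and
let `N(ε)` be the paving number of finite matrices over their diagonals
(`matrixPavingNumber`).  Then `n_{A ⊆ M}(ε') ≤ N(ε)` for all `ε < ε'` in each of the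
following cases:

* (a) `M` is of type I;
* (b) `M` has a separating vector `Ω` whose vector state centralizes `A`
  (`⟪Ω, a x Ω⟫ = ⟪Ω, x a Ω⟫` for `a ∈ A`, `x ∈ M`) and `A ⊆ M` is approximately of type I
  with respect to `Ω` (`IsApproxTypeOne`): every self-adjoint `x ∈ M` is approximated in the
  seminorm `y ↦ ‖y Ω‖` by self-adjoint elements `y`, `‖y‖ ≤ ‖x‖`, of type I von Neumann
  algebras `L` with `A ⊆ L ⊆ M`.  Here `M` need not be finite: no trace is assumed.  This is
  the form in which the theorem of Connes, Feldman and Weiss presents the Cartan MASAs of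
  amenable von Neumann algebras (with the state of a faithful normal state composed with the
  conditional expectation onto `A`);
* (c) `M` has a separating unit trace vector `Ω` and `A ⊆ M` is the crossed product of a free
  profinite action of a group `Γ` (`IsProfiniteOver`; `Γ` need not be amenable). -/
theorem result.{u} :
    ∀ (H : Type u) [NormedAddCommGroup H] [InnerProductSpace ℂ H] [CompleteSpace H]
      (A M : VonNeumannAlgebra H), IsMASA A M →
      (IsTypeOne M → ∀ ε ε' : ℝ, ε < ε' → soPavingNumber A M ε' ≤ matrixPavingNumber ε) ∧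
      ∀ Ω : H, IsSeparating M Ω →
        (IsCentralizing A M Ω → IsApproxTypeOne A M Ω →
          ∀ ε ε' : ℝ, ε < ε' → soPavingNumber A M ε' ≤ matrixPavingNumber ε) ∧
        ∀ (Γ : Type) [Group Γ], IsTraceVector M Ω → IsProfiniteOver Γ A M Ω →
          ∀ ε ε' : ℝ, ε < ε' → soPavingNumber A M ε' ≤ matrixPavingNumber ε := by
  intro H _ _ _ A M hA
  refine ⟨fun hM ε ε' hεε' => ?_, fun Ω hsep => ⟨fun hcen happ ε ε' hεε' =>
    soPavingNumber_le_matrixPavingNumber_of_approx_type_one A M hA hcen hsep happ hεε',
    fun Γ _ hΩ hpro ε ε' hεε' => pro_number_le A M Ω hA.1 hΩ hsep hpro hεε'⟩⟩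
  obtain ⟨f, hf, hfp, hfab, hcs⟩ := hM
  exact soPavingNumber_le_matrixPavingNumber_of_type_one A M hA f hf hfp hfab hcs hεε'

end Vale.Agent.Results.P078.ThreeClassesApproxTypeOne
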