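import Vale.Agent.Lib.P078.HF.Count

namespace Vale.Agent.Results.P078.TypeOneAndHyperfinite

open Vale.Agent.Lib.P078

/-- **So-paving numbers and the paving number of finite matrices: type I algebras and
approximately finite-dimensional inclusions.** Let `A` be a MASA of a von Neumann algebra `M` on
a Hilbert space `H` and let `N(ε)` be the paving number of finite matrices over their diagonals
(`matrixPavingNumber`).

* (a) If `M` is of type I, then `n_{A ⊆ M}(ε') ≤ N(ε)` for `ε < ε'`, and `n_{A ⊆ M}(ε) ≤ N(ε)`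
  for all `ε > 0` outside a countable set.
* (b) If `M` has a separating unit trace vector `Ω` and is approximately finite-dimensional
  over `A` (`IsAFDOver`), then `N(ε') ≤ n_{A ⊆ M}(ε') ≤ N(ε)` for `0 < ε < ε'`, and
  `n_{A ⊆ M}(ε) = N(ε)` for all `ε > 0` outside a countable set.
* (c) If `M` has a separating unit trace vector and is a factor without minimal projections,
  then `n_{A ⊆ M}(ε) ≥ ⌈ε⁻²⌉` for all `ε > 0`.
* (d) There exist `H`, `A ⊆ M` and `Ω` satisfying the hypotheses of (b) and (c): the witness is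
  a hyperfinite `II₁` factor with its Cartan MASA. -/
theorem result.{u} :
    (∀ (H : Type u) [NormedAddCommGroup H] [InnerProductSpace ℂ H] [CompleteSpace H]
        (A M : VonNeumannAlgebra H), IsMASA A M →
        (IsTypeOne M →
          (∀ ε ε' : ℝ, ε < ε' → soPavingNumber A M ε' ≤ matrixPavingNumber ε) ∧
          {ε : ℝ | 0 < ε ∧ ¬ soPavingNumber A M ε ≤ matrixPavingNumber ε}.Countable) ∧
        ∀ Ω : H, IsTraceVector M Ω → IsSeparating M Ω →
          (IsAFDOver A M Ω →
            (∀ ε ε' : ℝ, 0 < ε → ε < ε' → matrixPavingNumber ε' ≤ soPavingNumber A M ε' ∧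
              soPavingNumber A M ε' ≤ matrixPavingNumber ε) ∧
            {ε : ℝ | 0 < ε ∧ soPavingNumber A M ε ≠ matrixPavingNumber ε}.Countable) ∧
          (IsFactor M → IsDiffuse M → ∀ ε : ℝ, 0 < ε →
            ((⌈1 / ε ^ 2⌉₊ : ℕ) : ℕ∞) ≤ soPavingNumber A M ε)) ∧
    ∃ (H : Type) (_ : NormedAddCommGroup H) (_ : InnerProductSpace ℂ H) (_ : CompleteSpace H)
      (A M : VonNeumannAlgebra H) (Ω : H),
      IsMASA A M ∧ IsTraceVector M Ω ∧ IsSeparating M Ω ∧ IsAFDOver A M Ω ∧
        IsFactor M ∧ IsDiffuse M := by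
  refine ⟨fun H _ _ _ A M hA => ⟨fun hM => ⟨?_, typeOne_countable A M hA hM⟩,
      fun Ω hΩ hsep => ⟨fun hafd => ⟨fun ε ε' hε hεε' =>
        afd_sandwich A M hA hΩ hsep hafd hε hεε', afd_countable A M hA hΩ hsep hafd⟩,
        fun hF hdM ε hε => le_soPavingNumber_of_factor A M hF hdM hΩ hsep hA hε⟩⟩,
    PHilb, inferInstance, inferInstance, inferInstance, pA, pM, pOmega, pA_masa, pM_trace,
    pM_separating, pauli_afd, pM_factor, pM_diffuse⟩
  obtain ⟨f, hf, hfp, hfab, hcs⟩ := hM
  exact fun ε ε' hεε' =>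
    soPavingNumber_le_matrixPavingNumber_of_type_one A M hA f hf hfp hfab hcs hεε'

end Vale.Agent.Results.P078.TypeOneAndHyperfinite
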